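import Vale.Agent.Lib.P091.Final
import Vale.Agent.Lib.P091.Block
import Vale.Agent.Lib.P091.MainLemma

open MeasureTheory Filter Topology

namespace Vale.Agent.Results.P091.A_phi_sqrtlog

/-- Almost everywhere convergence of Fourier series fails in `φ(L)` for every monotone `φ ≥ 0` with
`φ(u) = o(u √(log u))`. -/
theorem result {T : ℝ} [Fact (0 < T)]
    (φ : ℝ → ℝ) (hφ : MonotoneOn φ (Set.Ici 0)) (hφ0 : ∀ u, 0 ≤ u → 0 ≤ φ u)
    (hlim : Tendsto (fun u : ℝ => φ u / (u * Real.sqrt (Real.log u))) atTop (𝓝 0)) :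
    ∃ f : AddCircle T → ℂ, Integrable f AddCircle.haarAddCircle ∧
      Integrable (fun x => φ ‖f x‖) AddCircle.haarAddCircle ∧
      0 < AddCircle.haarAddCircle {x : AddCircle T | ¬ ∃ l : ℂ,
        Tendsto (fun N : ℕ => ∑ k ∈ Finset.Icc (-(N : ℤ)) N, fourierCoeff f k • fourier k x)
          atTop (𝓝 l)} :=
  Vale.Agent.Lib.P091.final_of_block
    (Vale.Agent.Lib.P091.blockFamily_of_main T Vale.Agent.Lib.P091.main_lemma) φ hφ hφ0 hlim

end Vale.Agent.Results.P091.A_phi_sqrtlog
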